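import Mathlib
import Vale.Agent.P038.Final

namespace Vale.Agent.Results.P038.SecondNeighbourhood

/-- An oriented graph: a directed graph with no loops and no pair of opposite arcs. -/
def IsOriented {V : Type} (D : Digraph V) : Prop :=
  (∀ v, ¬ D.Adj v v) ∧ ∀ u v, D.Adj u v → ¬ D.Adj v u

/-- The first out-neighbourhood of `v`. -/
def firstOut {V : Type} (D : Digraph V) (v : V) : Set V :=
  {u | D.Adj v u}

/-- The second out-neighbourhood of `v`: vertices at directed distance exactly two. -/
def secondOut {V : Type} (D : Digraph V) (v : V) : Set V :=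
  {w | w ∉ ({v} : Set V) ∪ firstOut D v ∧ ∃ u, D.Adj v u ∧ D.Adj u w}

/-- Seymour's second neighbourhood conjecture. -/
theorem result (V : Type) [Finite V] [Nonempty V] (D : Digraph V) (hD : IsOriented D) :
    ∃ v : V, (firstOut D v).ncard ≤ (secondOut D v).ncard := by
  obtain ⟨v, hv⟩ := Vale.Agent.P038.seymour D.Adj hD.1 hD.2
  refine ⟨v, ?_⟩
  have h : secondOut D v = {w | w ≠ v ∧ ¬ D.Adj v w ∧ ∃ u, D.Adj v u ∧ D.Adj u w} := by
    ext w
    simp only [secondOut, firstOut, Set.mem_setOf_eq, Set.mem_union, Set.mem_singleton_iff]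
    tauto
  rw [h]
  exact hv

end Vale.Agent.Results.P038.SecondNeighbourhood
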